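import Vale.Agent.P246.R2.H429.Defs5

/-! # P246, fifth wave, row HOM: presentation complexes of the same presentation are homeomorphic -/

namespace Vale.Agent.P246.R2.H340H

open Topology Metric Set Vale.Agent.P246 Vale.Agent.P246.T Vale.Agent.P246.H429

/-- the disjoint union of the cells -/
abbrev KK (m l : ℕ) : Type := Unit ⊕ ((Fin m × Dk 1) ⊕ (Fin l × Dk 2))

/-- the interior points of the cells -/
def NF {m l : ℕ} : KK m l → Prop
  | Sum.inl _ => True
  | Sum.inr (Sum.inl q) => ‖(q.2 : Fin 1 → ℝ)‖ < 1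
  | Sum.inr (Sum.inr q) => ‖(q.2 : Fin 2 → ℝ)‖ < 1

section

variable {G X E : Type} [Group G] [TopologicalSpace X] [TopologicalSpace E] [MulAction G E]
  [ContinuousConstSMul G E] {p : C(E, X)} {Pr : FinPresentation G}

/-- the characteristic map -/
noncomputable def Th (c : PresCx Pr p) : KK Pr.gens Pr.rels → X
  | Sum.inl _ => p c.e
  | Sum.inr (Sum.inl q) => p (c.edge q.1 q.2)
  | Sum.inr (Sum.inr q) => p (c.b q.1 q.2)

theorem continuous_Th (c : PresCx Pr p) : Continuous (Th c) := by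
  refine continuous_sum_dom.2 ⟨continuous_const, continuous_sum_dom.2 ⟨?_, ?_⟩⟩
  · refine continuous_prod_of_discrete_left.2 fun i => ?_
    exact p.continuous.comp (c.edge i).continuous
  · refine continuous_prod_of_discrete_left.2 fun j => ?_
    exact p.continuous.comp (c.b j).continuous

theorem Y1_mono (c : PresCx Pr p) {k k' : ℕ} (h : k ≤ k') : c.Y1 k ⊆ c.Y1 k' := by
  rintro x (hx | hx)
  · exact Or.inl hx
  · obtain ⟨i, hi, hx⟩ := mem_iUnion₂.1 hx
    exact Or.inr (mem_iUnion₂.2 ⟨i, lt_of_lt_of_le hi h, hx⟩)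

theorem Y2_mono (c : PresCx Pr p) {k k' : ℕ} (h : k ≤ k') : c.Y2 k ⊆ c.Y2 k' := by
  rintro x (hx | hx)
  · exact Or.inl hx
  · obtain ⟨i, hi, hx⟩ := mem_iUnion₂.1 hx
    exact Or.inr (mem_iUnion₂.2 ⟨i, lt_of_lt_of_le hi h, hx⟩)

theorem base_mem (c : PresCx Pr p) (k : ℕ) : p c.e ∈ c.Y1 k := Or.inl rfl

theorem edge_mem (c : PresCx Pr p) {i : Fin Pr.gens} {k : ℕ} (hk : (i : ℕ) < k) (z : Dk 1) :
    p (c.edge i z) ∈ c.Y1 k := Or.inr (mem_iUnion₂.2 ⟨i, hk, z, rfl⟩)

theorem face_mem (c : PresCx Pr p) {j : Fin Pr.rels} {k : ℕ} (hk : (j : ℕ) < k) (z : Dk 2) :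
    p (c.b j z) ∈ c.Y2 k := Or.inr (mem_iUnion₂.2 ⟨j, hk, z, rfl⟩)

theorem Th_mem (c : PresCx Pr p) (k : KK Pr.gens Pr.rels) : Th c k ∈ c.Y := by
  rcases k with _ | ⟨i, z⟩ | ⟨j, z⟩
  · exact Or.inl (base_mem c _)
  · exact Or.inl (edge_mem c i.2 z)
  · exact face_mem c j.2 z

theorem Th_surj (c : PresCx Pr p) {x : X} (hx : x ∈ c.Y) : ∃ k, Th c k = x := by
  rcases hx with (hx | hx) | hx
  · exact ⟨Sum.inl (), hx.symm⟩
  · obtain ⟨i, -, z, hz⟩ := mem_iUnion₂.1 hx
    exact ⟨Sum.inr (Sum.inl (i, z)), hz⟩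
  · obtain ⟨j, -, z, hz⟩ := mem_iUnion₂.1 hx
    exact ⟨Sum.inr (Sum.inr (j, z)), hz⟩

/-- the interior points are different -/
theorem Th_inj (c : PresCx Pr p) (hc : c.Good) {k k' : KK Pr.gens Pr.rels} (hk : NF k)
    (hk' : NF k') (h : Th c k = Th c k') : k = k' := by
  have hedge : ∀ (i : Fin Pr.gens) (z : Dk 1), ‖(z : Fin 1 → ℝ)‖ < 1 →
      p (c.edge i z) ∉ c.Y1 i := fun i z hz => (hc.att1 i).int z hz
  have hface : ∀ (j : Fin Pr.rels) (z : Dk 2), ‖(z : Fin 2 → ℝ)‖ < 1 →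
      p (c.b j z) ∉ c.Y2 j := fun j z hz => (hc.att2 j).int z hz
  rcases k with _ | ⟨i, z⟩ | ⟨j, z⟩ <;> rcases k' with _ | ⟨i', z'⟩ | ⟨j', z'⟩
  · rfl
  · have h' : p c.e = p (c.edge i' z') := h
    exact absurd (h' ▸ base_mem c _) (hedge i' z' hk')
  · have h' : p c.e = p (c.b j' z') := h
    exact absurd (h' ▸ (Or.inl (base_mem c _) : p c.e ∈ c.Y2 j')) (hface j' z' hk')
  · have h' : p (c.edge i z) = p c.e := h
    exact absurd (h'.symm ▸ base_mem c _) (hedge i z hk)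
  · have h' : p (c.edge i z) = p (c.edge i' z') := h
    rcases lt_trichotomy i i' with hlt | heq | hgt
    · exact absurd (h' ▸ edge_mem c (Fin.lt_def.1 hlt) z) (hedge i' z' hk')
    · subst heq
      rw [(hc.att1 i).inj z z' hk hk' h']
    · exact absurd (h'.symm ▸ edge_mem c (Fin.lt_def.1 hgt) z') (hedge i z hk)
  · have h' : p (c.edge i z) = p (c.b j' z') := h
    exact absurd (h' ▸ (Or.inl (edge_mem c i.2 z) : p (c.edge i z) ∈ c.Y2 j')) (hface j' z' hk')
  · have h' : p (c.b j z) = p c.e := h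
    exact absurd (h'.symm ▸ (Or.inl (base_mem c _) : p c.e ∈ c.Y2 j)) (hface j z hk)
  · have h' : p (c.b j z) = p (c.edge i' z') := h
    exact absurd (h'.symm ▸ (Or.inl (edge_mem c i'.2 z') : p (c.edge i' z') ∈ c.Y2 j))
      (hface j z hk)
  · have h' : p (c.b j z) = p (c.b j' z') := h
    rcases lt_trichotomy j j' with hlt | heq | hgt
    · exact absurd (h' ▸ face_mem c (Fin.lt_def.1 hlt) z) (hface j' z' hk')
    · subst heq
      rw [(hc.att2 j).inj z z' hk hk' h']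
    · exact absurd (h'.symm ▸ face_mem c (Fin.lt_def.1 hgt) z') (hface j z hk)

end

section

variable {G X E X' E' : Type} [Group G] [TopologicalSpace X] [T2Space X]
  [TopologicalSpace E] [MulAction G E] [ContinuousConstSMul G E] {p : C(E, X)}
  [TopologicalSpace X'] [T2Space X'] [TopologicalSpace E'] [MulAction G E']
  [ContinuousConstSMul G E'] {p' : C(E', X')} {Pr : FinPresentation G}

omit [T2Space X] [T2Space X'] in
/-- the points of the edges -/
theorem exists_edge (hp : IsQuotientCoveringMap p G) (hp' : IsQuotientCoveringMap p' G)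
    (c : PresCx Pr p) (c' : PresCx Pr p') (i : Fin Pr.gens) (s : unitInterval) :
    ∃ k : KK Pr.gens Pr.rels, NF k ∧ p (c.a i s) = Th c k ∧ p' (c'.a i s) = Th c' k := by
  by_cases h0 : s = 0
  · subst h0
    refine ⟨Sum.inl (), trivial, ?_, ?_⟩
    · rw [(c.a i).source]; rfl
    · rw [(c'.a i).source]; rfl
  by_cases h1 : s = 1
  · subst h1
    refine ⟨Sum.inl (), trivial, ?_, ?_⟩
    · rw [(c.a i).target, hp.map_smul]; rfl
    · rw [(c'.a i).target, hp'.map_smul]; rfl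
  have hs0 : (0 : ℝ) < s := lt_of_le_of_ne s.2.1 fun h => h0 (Subtype.ext h.symm)
  have hs1 : (s : ℝ) < 1 := lt_of_le_of_ne s.2.2 fun h => h1 (Subtype.ext h)
  have hz : ‖(fun _ : Fin 1 => 2 * (s : ℝ) - 1)‖ < 1 := by
    rw [pi_norm_const, Real.norm_eq_abs, abs_lt]
    constructor <;> linarith
  have hpar : par (2 * (s : ℝ) - 1) = s := by
    apply Subtype.ext
    rw [par, Set.coe_projIcc]
    have : (2 * (s : ℝ) - 1 + 1) / 2 = s := by ring
    rw [this, min_eq_right hs1.le, max_eq_right hs0.le]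
  refine ⟨Sum.inr (Sum.inl (i, ⟨fun _ => 2 * (s : ℝ) - 1, mem_closedBall_zero_iff.2 hz.le⟩)), hz,
    ?_, ?_⟩
  · change p (c.a i s) = p (c.a i (par (2 * (s : ℝ) - 1)))
    rw [hpar]
  · change p' (c'.a i s) = p' (c'.a i (par (2 * (s : ℝ) - 1)))
    rw [hpar]

omit [T2Space X] [T2Space X'] in
/-- the points of the paths of words -/
theorem exists_word (hp : IsQuotientCoveringMap p G) (hp' : IsQuotientCoveringMap p' G)
    (c : PresCx Pr p) (c' : PresCx Pr p') (w : List (Fin Pr.gens × Bool)) :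
    ∀ s : unitInterval, ∃ k : KK Pr.gens Pr.rels, NF k ∧ p (wpath Pr.x c.a w s) = Th c k ∧
      p' (wpath Pr.x c'.a w s) = Th c' k := by
  induction w with
  | nil =>
    intro s
    exact ⟨Sum.inl (), trivial, rfl, rfl⟩
  | cons l w ih =>
    intro s
    have e1 : wpath Pr.x c.a (l :: w) s =
        ((lpath Pr.x c.a l).trans (gpath (lval Pr.x l) (wpath Pr.x c.a w))) s := rfl
    have e2 : wpath Pr.x c'.a (l :: w) s =
        ((lpath Pr.x c'.a l).trans (gpath (lval Pr.x l) (wpath Pr.x c'.a w))) s := rfl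
    rw [e1, e2, Path.trans_apply, Path.trans_apply]
    by_cases hs : (s : ℝ) ≤ 1 / 2
    · rw [dif_pos hs, dif_pos hs]
      rcases l with ⟨i, _ | _⟩
      · obtain ⟨k, hk, h1, h2⟩ := exists_edge hp hp' c c' i
          (unitInterval.symm ⟨2 * (s : ℝ), (unitInterval.mul_pos_mem_iff zero_lt_two).2 ⟨s.2.1, hs⟩⟩)
        refine ⟨k, hk, ?_, ?_⟩
        · rw [← h1]
          exact hp.map_smul _
        · rw [← h2]
          exact hp'.map_smul _
      · exact exists_edge hp hp' c c' i _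
    · rw [dif_neg hs, dif_neg hs]
      obtain ⟨k, hk, h1, h2⟩ := ih ⟨2 * (s : ℝ) - 1,
        unitInterval.two_mul_sub_one_mem_iff.2 ⟨(not_le.1 hs).le, s.2.2⟩⟩
      refine ⟨k, hk, ?_, ?_⟩
      · rw [← h1]
        exact hp.map_smul _
      · rw [← h2]
        exact hp'.map_smul _

omit [T2Space X] [T2Space X'] in
/-- normal forms -/
theorem exists_nf (hp : IsQuotientCoveringMap p G) (hp' : IsQuotientCoveringMap p' G)
    (c : PresCx Pr p) (c' : PresCx Pr p') (k : KK Pr.gens Pr.rels) :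
    ∃ k₀ : KK Pr.gens Pr.rels, NF k₀ ∧ Th c k = Th c k₀ ∧ Th c' k = Th c' k₀ := by
  rcases k with _ | ⟨i, z⟩ | ⟨j, z⟩
  · exact ⟨Sum.inl (), trivial, rfl, rfl⟩
  · exact exists_edge hp hp' c c' i (par ((z : Fin 1 → ℝ) 0))
  · rcases lt_or_eq_of_le (mem_closedBall_zero_iff.1 z.2) with hz | hz
    · exact ⟨Sum.inr (Sum.inr (j, z)), hz, rfl, rfl⟩
    · by_cases h1 : (z : Fin 2 → ℝ) 0 = 1
      · obtain ⟨k, hk, h2, h3⟩ := exists_word hp hp' c c' (Pr.r j).toWord (par ((z : Fin 2 → ℝ) 1))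
        refine ⟨k, hk, ?_, ?_⟩
        · rw [← h2]
          change p (c.b j z) = _
          rw [(c.bdry j z hz).1 h1]
        · rw [← h3]
          change p' (c'.b j z) = _
          rw [(c'.bdry j z hz).1 h1]
      · refine ⟨Sum.inl (), trivial, ?_, ?_⟩
        · change p (c.b j z) = p c.e
          rw [(c.bdry j z hz).2 h1]
        · change p' (c'.b j z) = p' c'.e
          rw [(c'.bdry j z hz).2 h1]

omit [T2Space X] [T2Space X'] in
theorem ker_le (hp : IsQuotientCoveringMap p G) (hp' : IsQuotientCoveringMap p' G)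
    (c : PresCx Pr p) (c' : PresCx Pr p') (hc : c.Good) {k k' : KK Pr.gens Pr.rels}
    (h : Th c k = Th c k') : Th c' k = Th c' k' := by
  obtain ⟨k₀, h0, h1, h2⟩ := exists_nf hp hp' c c' k
  obtain ⟨k₁, h0', h1', h2'⟩ := exists_nf hp hp' c c' k'
  have h3 : k₀ = k₁ := Th_inj c hc h0 h0' (by rw [← h1, ← h1', h])
  rw [h2, h2', h3]

/-- the characteristic map to the complex -/
noncomputable def ThY (c : PresCx Pr p) : C(KK Pr.gens Pr.rels, c.Y) :=
  ⟨fun k => ⟨Th c k, Th_mem c k⟩, (continuous_Th c).subtype_mk _⟩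

theorem ThY_surj (c : PresCx Pr p) : Function.Surjective (ThY c) := by
  rintro ⟨x, hx⟩
  obtain ⟨k, hk⟩ := Th_surj c hx
  exact ⟨k, Subtype.ext hk⟩

theorem ThY_quot (c : PresCx Pr p) : IsQuotientMap (ThY c) :=
  IsQuotientMap.of_surjective_continuous (ThY_surj c) (ThY c).continuous

end

/-- ROW HOM -/
theorem hom : SpecHom := by
  intro G X E X' E' _ _ _ _ _ _ p _ _ _ _ _ p' hp hp' Pr c c' hc hc'
  have hcf : Function.FactorsThrough (ThY c') (ThY c) := fun a b h =>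
    Subtype.ext (ker_le hp hp' c c' hc (congrArg Subtype.val h))
  have hcg : Function.FactorsThrough (ThY c) (ThY c') := fun a b h =>
    Subtype.ext (ker_le hp' hp c' c hc' (congrArg Subtype.val h))
  obtain ⟨f, hf⟩ : ∃ f : C(c.Y, c'.Y), ∀ k, f (ThY c k) = ThY c' k :=
    ⟨(ThY_quot c).lift (ThY c') hcf, fun k =>
      DFunLike.congr_fun ((ThY_quot c).lift_comp (ThY c') hcf) k⟩
  obtain ⟨g, hg⟩ : ∃ g : C(c'.Y, c.Y), ∀ k, g (ThY c' k) = ThY c k :=
    ⟨(ThY_quot c').lift (ThY c) hcg, fun k =>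
      DFunLike.congr_fun ((ThY_quot c').lift_comp (ThY c) hcg) k⟩
  exact ⟨{
    toFun := f
    invFun := g
    left_inv := fun y => by
      obtain ⟨k, rfl⟩ := ThY_surj c y
      rw [hf, hg]
    right_inv := fun y => by
      obtain ⟨k, rfl⟩ := ThY_surj c' y
      rw [hg, hf]
    continuous_toFun := f.continuous
    continuous_invFun := g.continuous }⟩

end Vale.Agent.P246.R2.H340H
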