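import Vale.Agent.P246.R2.H429.Defs4
import Vale.Agent.P246.T.MX
import Mathlib.Analysis.Normed.Module.Connected

/-! # P246, fourth wave, row TW4: the finite model of the chains of the covering of a wedge -/

namespace Vale.Agent.P246.R2.H340W

open Topology Metric Set Vale.Agent.P246 Vale.Agent.P246.T Vale.Agent.P246.H429

theorem isPreconnected_bdk : IsPreconnected (bdk 2) := by
  have h1 : IsPreconnected (sphere (0 : Fin 2 → ℝ) 1) :=
    isPreconnected_sphere (by
      rw [rank_fin_fun]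
      exact_mod_cast Nat.one_lt_two) 0 1
  have h2 : (Subtype.val '' bdk 2 : Set (Fin 2 → ℝ)) = sphere (0 : Fin 2 → ℝ) 1 := by
    ext x
    constructor
    · rintro ⟨y, hy, rfl⟩
      exact mem_sphere_zero_iff_norm.2 hy
    · intro hx
      exact ⟨⟨x, sphere_subset_closedBall hx⟩, mem_sphere_zero_iff_norm.1 hx, rfl⟩
  rw [← h2] at h1
  exact (Topology.IsInducing.subtypeVal.isPreconnected_image).1 h1

theorem bdk_nonempty : (bdk 2).Nonempty := by
  refine ⟨⟨fun _ => 1, ?_⟩, ?_⟩
  · rw [mem_closedBall_zero_iff]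
    exact (pi_norm_le_iff_of_nonneg zero_le_one).2 fun _ => by simp
  · change ‖(fun _ => 1 : Fin 2 → ℝ)‖ = 1
    rw [pi_norm_const]
    simp

section
variable {M N : Type} [TopologicalSpace M] [TopologicalSpace N]

theorem push_congr {f g : C(M, N)} {A : Set M} (h : ∀ x ∈ A, f x = g x) {n : ℕ} {c : Ch n M}
    (hc : c ∈ Con A n) : push f n c = push g n c := by
  rw [Vale.Agent.P246.T.Con, Finsupp.mem_supported] at hc
  rw [push, push, Finsupp.lmapDomain_apply, Finsupp.lmapDomain_apply]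
  refine Finsupp.mapDomain_congr fun σ hσ => ?_
  exact ContinuousMap.ext fun x => h _ (hc hσ x)

end

section

variable {G W F : Type} [Group G] [TopologicalSpace W] [T2Space W]
  [TopologicalSpace F] [MulAction G F] [ContinuousConstSMul G F] {q : C(F, W)}

omit [T2Space W] [ContinuousConstSMul G F] in
theorem const_bdry (hq : IsQuotientCoveringMap q G) {Φ : C(Dk 2, W)} {Ψ : C(Dk 2, F)}
    (hΨ : ∀ x, q (Ψ x) = Φ x) {a : W} (ha : ∀ z ∈ bdk 2, Φ z = a) :
    ∃ e₀ : F, q e₀ = a ∧ ∀ z ∈ bdk 2, Ψ z = e₀ := by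
  obtain ⟨z₀, hz₀⟩ := bdk_nonempty
  refine ⟨Ψ z₀, by rw [hΨ, ha z₀ hz₀], ?_⟩
  have h1 := hq.isCoveringMap.eqOn_of_comp_eqOn isPreconnected_bdk
    (g₁ := Ψ) (g₂ := fun _ => Ψ z₀) Ψ.continuous.continuousOn continuousOn_const
    (fun z hz => by
      change q (Ψ z) = q (Ψ z₀)
      rw [hΨ, hΨ, ha z hz, ha z₀ hz₀]) hz₀ rfl
  exact fun z hz => h1 hz

/-- the cycle given by the cell -/
theorem exists_cycle (hf : SpecFund) (hq : IsQuotientCoveringMap q G) {A : Set W}
    {Φ : C(Dk 2, W)} {a : W} (haA : a ∈ A) (ha : ∀ z ∈ bdk 2, Φ z = a) :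
    ∃ (Ψ : C(Dk 2, F)) (ζ : Ch 2 (Dk 2)) (z : SC G 2 F), (∀ x, q (Ψ x) = Φ x) ∧ IsFund 2 ζ ∧
      z.un - push Ψ 2 ζ ∈ Con (q ⁻¹' A) 2 ∧ SC.d G 1 F z = 0 := by
  obtain ⟨Ψ, hΨ⟩ := MX.exists_lift hq Φ
  obtain ⟨ζ, hζ⟩ := hf.1 2
  obtain ⟨e₀, he₀, hc⟩ := const_bdry hq hΨ ha
  have h1 : bd 1 (push Ψ 2 ζ) = PR.wt 1 (bd 1 ζ) • ksx 1 e₀ := by
    rw [push_bd, push_congr (g := ContinuousMap.const _ e₀) hc hζ.cyc, PR.push_const]
  have h2 : bd 1 (ksx 2 e₀) = ksx 1 e₀ := by
    rw [PR.bd_ksx, if_neg (by decide), one_smul]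
  refine ⟨Ψ, ζ, SC.mk G (push Ψ 2 ζ - PR.wt 1 (bd 1 ζ) • ksx 2 e₀), hΨ, hζ, ?_, ?_⟩
  · rw [SC.un_mk, sub_sub_cancel_left]
    refine Submodule.neg_mem _ (Submodule.smul_mem _ _ ?_)
    refine PR.single_mem (fun _ => ?_) 1
    change q e₀ ∈ A
    rw [he₀]
    exact haA
  · apply SC.un_inj
    change bd 1 (push Ψ 2 ζ - PR.wt 1 (bd 1 ζ) • ksx 2 e₀) = 0
    rw [map_sub, map_smul, h1, h2, sub_self]

end

section Alg

variable {R M : Type} [Ring R] [AddCommGroup M] [Module R M]

/-- one more generator -/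
theorem rank_sup {P A : Submodule R M} (hPA : P ≤ A) {z : M} (hz : ∀ r : R, r • z ∈ A → r = 0)
    {m : ℕ} (hP : Nonempty (P ≃ₗ[R] (Fin m → R))) :
    Nonempty ((P ⊔ Submodule.span R {z} : Submodule R M) ≃ₗ[R] (Fin (m + 1) → R)) := by
  obtain ⟨u⟩ := hP
  let f : (P × R) →ₗ[R] M := P.subtype.coprod (LinearMap.toSpanSingleton R M z)
  have hf : Function.Injective f := by
    rw [injective_iff_map_eq_zero]
    rintro ⟨x, r⟩ h
    have h1 : (x : M) + r • z = 0 := h
    have hr : r = 0 := hz r (by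
      rw [eq_neg_of_add_eq_zero_right h1]
      exact Submodule.neg_mem _ (hPA x.2))
    subst hr
    rw [zero_smul, add_zero] at h1
    exact Prod.ext (Subtype.ext h1) rfl
  have hrange : LinearMap.range f = P ⊔ Submodule.span R {z} := by
    rw [LinearMap.range_coprod, Submodule.range_subtype, LinearMap.range_toSpanSingleton]
  have e := (LinearEquiv.ofInjective f hf).trans (LinearEquiv.ofEq _ _ hrange)
  exact ⟨e.symm.trans (((LinearEquiv.prodCongr u (LinearEquiv.refl R R)).trans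
    (LinearEquiv.prodComm R _ _)).trans (Fin.consLinearEquiv R (fun _ : Fin (m + 1) => R)))⟩

theorem disj_sup {P Z A : Submodule R M} (hP : P ≤ A) (hZ : Z ≤ A) {z : M}
    (hz : ∀ r : R, r • z ∈ A → r = 0) (h : Disjoint P Z) :
    Disjoint P (Z ⊔ Submodule.span R {z}) := by
  rw [Submodule.disjoint_def] at h ⊢
  intro x hx hx'
  obtain ⟨y, hy, w, hw, rfl⟩ := Submodule.mem_sup.1 hx'
  obtain ⟨r, rfl⟩ := Submodule.mem_span_singleton.1 hw
  have h1 : r • z ∈ A := by
    have : r • z = (y + r • z) - y := by abel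
    rw [this]
    exact Submodule.sub_mem _ (hP hx) (hZ hy)
  have hr := hz r h1
  subst hr
  rw [zero_smul, add_zero] at hx ⊢
  exact h y hx hy

end Alg

section

variable {G W F : Type} [Group G] [TopologicalSpace W] [T2Space W]
  [TopologicalSpace F] [MulAction G F] [ContinuousConstSMul G F] {q : C(F, W)}

theorem sphs (hms : SpecMS) (hcl : SpecCL) (hf : SpecFund) (hq : IsQuotientCoveringMap q G)
    {C : Set W} (hC : IsClosed C) {P : ∀ n, Submodule (ZG G) (SC G n F)}
    (hP : IsFinModel (fun n => SC G n F) (fun n => SC.d G n F) (Step.SA hq C) P) {B : Set W}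
    {t : ℕ} (hB : Sph C B t) : IsClosed B ∧ C ⊆ B ∧ ∃ Z : Submodule (ZG G) (SC G 2 F),
      Nonempty (Z ≃ₗ[ZG G] (Fin t → ZG G)) ∧ (∀ z ∈ Z, SC.d G 1 F z = 0) ∧ Disjoint (P 2) Z ∧
      IsFinModel (fun n => SC G n F) (fun n => SC.d G n F) (Step.SA hq B)
        (Function.update P 2 (P 2 ⊔ Z)) := by
  induction hB with
  | base =>
    refine ⟨hC, Subset.rfl, ⊥, ⟨?_⟩, ?_, disjoint_bot_right, ?_⟩
    · exact LinearEquiv.ofSubsingleton _ _
    · intro z hz
      rw [Submodule.mem_bot] at hz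
      rw [hz, map_zero]
    · rw [sup_bot_eq, Function.update_eq_self]
      exact hP
  | @cell A B t Φ a hA haC ha h ih =>
    obtain ⟨hAc, hCA, Z, hZ, hZd, hdis, hm⟩ := ih
    obtain ⟨Ψ, ζ, z, hΨ, hζ, hz, hz'⟩ := exists_cycle (G := G) hf hq (hCA haC) ha
    obtain ⟨h1, h2⟩ := Step.step hms CC.main2 hcl hq Ψ hAc h hΨ hζ hm.toIsModel z hz (by
      change SC.d G 1 F z ∈ Function.update P 2 (P 2 ⊔ Z) 1
      rw [hz']
      exact Submodule.zero_mem _)
    have hle := hm.le 2
    rw [Function.update_self] at hle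
    have e : Function.update (Function.update P 2 (P 2 ⊔ Z)) 2
        (Function.update P 2 (P 2 ⊔ Z) 2 ⊔ Submodule.span (ZG G) {z}) =
        Function.update P 2 (P 2 ⊔ (Z ⊔ Submodule.span (ZG G) {z})) := by
      rw [Function.update_idem, Function.update_self, sup_assoc]
    rw [e] at h1
    refine ⟨?_, ?_, Z ⊔ Submodule.span (ZG G) {z}, ?_, ?_, ?_, ?_⟩
    · rw [h.eq]
      exact hAc.union (isCompact_range Φ.continuous).isClosed
    · rw [h.eq]
      exact hCA.trans subset_union_left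
    · exact rank_sup (le_sup_right.trans hle) h2 hZ
    · intro x hx
      obtain ⟨y, hy, w, hw, rfl⟩ := Submodule.mem_sup.1 hx
      obtain ⟨r, rfl⟩ := Submodule.mem_span_singleton.1 hw
      rw [map_add, map_smul, hZd y hy, hz', smul_zero, add_zero]
    · exact disj_sup (le_sup_left.trans hle) (le_sup_right.trans hle) h2 hdis
    · refine { toIsModel := h1, free := fun k => ?_, fin := fun k => ?_, bdd := ?_ }
      · by_cases hk : k = 2
        · subst hk
          rw [Function.update_self, ← sup_assoc]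
          have h3 := hm.free 2
          rw [Function.update_self] at h3
          exact MX.free_sup hle h2 h3
        · rw [Function.update_of_ne hk]
          exact hP.free k
      · by_cases hk : k = 2
        · subst hk
          rw [Function.update_self, ← sup_assoc]
          have h3 := hm.fin 2
          rw [Function.update_self] at h3
          exact MX.finite_sup z h3
        · rw [Function.update_of_ne hk]
          exact hP.fin k
      · obtain ⟨N, hN⟩ := hP.bdd
        refine ⟨max N 2, fun k hk => ?_⟩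
        rw [Function.update_of_ne (by have := le_max_right N 2; omega)]
        exact hN k (lt_of_le_of_lt (le_max_left N 2) hk)

end

/-- ROW TW4, from the blocks MS, CL, FM -/
theorem chW (hms : SpecMS) (hcl : SpecCL) (hf : SpecFund) : SpecChW := by
  intro G W F _ _ _ _ _ _ q hq C t hC hS P hP
  obtain ⟨-, -, Z, h1, h2, h3, h4⟩ := sphs hms hcl hf hq hC hP hS
  refine ⟨Z, h1, h2, h3, ?_⟩
  have e : (Step.SA hq univ : ∀ n, Submodule (ZG G) (SC G n F)) = fun _ => ⊤ := by
    funext n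
    rw [eq_top_iff]
    intro x _
    rw [Step.mem_SA, preimage_univ]
    exact PR.Con_univ _
  rw [← e]
  exact h4

end Vale.Agent.P246.R2.H340W
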